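import Mathlib

/-!
Almost inclusion, the splitting hypothesis (reaping number = continuum), and
a general transfinite construction of a compatible family solving all tasks.
-/

namespace Vale.Agent.P068

open Set Cardinal

/-- Almost inclusion: `A \ B` is finite. -/
def AS {α : Type*} (A B : Set α) : Prop := (A \ B).Finite

namespace AS

variable {α : Type*} {A B C : Set α}

theorem of_subset (h : A ⊆ B) : AS A B := by
  unfold AS
  rw [Set.sdiff_eq_empty.2 h]
  exact Set.finite_empty

theorem refl (A : Set α) : AS A A := of_subset le_rfl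

theorem trans (h1 : AS A B) (h2 : AS B C) : AS A C := by
  refine (h1.union h2).subset ?_
  intro x hx
  by_cases h : x ∈ B
  · exact Or.inr ⟨h, hx.2⟩
  · exact Or.inl ⟨hx.1, h⟩

theorem compl (h : AS A B) : AS Bᶜ Aᶜ := by
  refine h.subset ?_
  intro x hx
  exact ⟨not_not.1 hx.2, hx.1⟩

theorem compl_iff : AS Bᶜ Aᶜ ↔ AS A B :=
  ⟨fun h => by simpa using h.compl, compl⟩

theorem compl_left : AS Aᶜ B ↔ AS Bᶜ A := by
  rw [← compl_iff, compl_compl]

theorem compl_right : AS A Bᶜ ↔ AS B Aᶜ := by
  rw [← compl_iff, compl_compl]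

theorem mono_left (h : A ⊆ B) (h2 : AS B C) : AS A C := (of_subset h).trans h2

theorem mono_right (h2 : AS A B) (h : B ⊆ C) : AS A C := h2.trans (of_subset h)

end AS

/-- The splitting hypothesis: every family of fewer than continuum many infinite sets of naturals
is split by a single set.  (In other words: the reaping number equals the continuum.) -/
def SplitHyp : Prop :=
  ∀ (ι : Type) (X : ι → Set ℕ), #ι < 𝔠 → (∀ i, (X i).Infinite) →
    ∃ G : Set ℕ, ∀ i, (X i ∩ G).Infinite ∧ (X i \ G).Infinite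

/-- Splitting for a countable family of infinite sets of naturals (a theorem of ZFC). -/
theorem countable_split (X : ℕ → Set ℕ) (hX : ∀ i, (X i).Infinite) :
    ∃ G : Set ℕ, ∀ i, (X i ∩ G).Infinite ∧ (X i \ G).Infinite := by
  classical
  -- choose a strictly increasing sequence `a m ∈ X (unpair m).1`
  have hnext : ∀ (n m : ℕ), ∃ b ∈ X m, n < b := fun n m => (hX m).exists_gt n
  choose nxt hnx hgt using hnext
  obtain ⟨a, hmono, hamem⟩ : ∃ a : ℕ → ℕ, StrictMono a ∧
      ∀ m, a m ∈ X (Nat.unpair (m / 2)).1 := by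
    refine ⟨fun m => Nat.rec (nxt 0 (Nat.unpair (0 / 2)).1)
      (fun k ak => nxt ak (Nat.unpair ((k + 1) / 2)).1) m, ?_, ?_⟩
    · exact strictMono_nat_of_lt_succ (fun k => hgt _ _)
    · intro m
      cases m with
      | zero => exact hnx _ _
      | succ k => exact hnx _ _
  refine ⟨{x | ∃ m, x = a (2 * m)}, fun i => ⟨?_, ?_⟩⟩
  · have hinj : Function.Injective (fun k : ℕ => a (2 * Nat.pair i k)) := by
      intro k k' h
      have := hmono.injective h
      have h2 : Nat.pair i k = Nat.pair i k' := by omega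
      exact (Nat.pair_eq_pair.1 h2).2
    refine (Set.infinite_range_of_injective hinj).mono ?_
    rintro _ ⟨k, rfl⟩
    refine ⟨?_, ⟨_, rfl⟩⟩
    have := hamem (2 * Nat.pair i k)
    simpa using this
  · have hinj : Function.Injective (fun k : ℕ => a (2 * Nat.pair i k + 1)) := by
      intro k k' h
      have h0 : a (2 * Nat.pair i k + 1) = a (2 * Nat.pair i k' + 1) := h
      have := hmono.injective h0
      have h2 : Nat.pair i k = Nat.pair i k' := by omega
      exact (Nat.pair_eq_pair.1 h2).2
    refine (Set.infinite_range_of_injective hinj).mono ?_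
    rintro _ ⟨k, rfl⟩
    refine ⟨?_, ?_⟩
    · have := hamem (2 * Nat.pair i k + 1)
      have h3 : (2 * Nat.pair i k + 1) / 2 = Nat.pair i k := by omega
      simpa [h3] using this
    · rintro ⟨m, hm⟩
      have hm0 : a (2 * Nat.pair i k + 1) = a (2 * m) := hm
      have := hmono.injective hm0
      omega

/-- The continuum hypothesis implies the splitting hypothesis. -/
theorem splitHyp_of_CH (hCH : (𝔠 : Cardinal.{0}) = ℵ₁) : SplitHyp := by
  intro ι X hι hX
  have hc : #ι ≤ ℵ₀ := by
    rw [hCH] at hι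
    rw [← Order.lt_succ_iff, Cardinal.succ_aleph0]
    exact hι
  rcases isEmpty_or_nonempty ι with he | he
  · exact ⟨∅, fun i => (he.false i).elim⟩
  · have : Countable ι := Cardinal.mk_le_aleph0_iff.1 hc
    obtain ⟨e, he⟩ := exists_surjective_nat ι
    obtain ⟨G, hG⟩ := countable_split (fun n => X (e n)) (fun n => hX _)
    refine ⟨G, fun i => ?_⟩
    obtain ⟨n, rfl⟩ := he i
    exact hG n

/-- The splitting hypothesis transferred to any countably infinite type. -/
theorem SplitHyp.transfer (h : SplitHyp) {F : Type} (e : F ≃ ℕ) (ι : Type) (X : ι → Set F)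
    (hι : #ι < 𝔠) : ∃ G : Set F, ∀ i, (X i).Infinite → (X i ∩ G).Infinite ∧ (X i \ G).Infinite := by
  obtain ⟨G, hG⟩ := h {i : ι // (X i).Infinite} (fun i => e '' (X i.1))
    (lt_of_le_of_lt (Cardinal.mk_subtype_le _) hι)
    (fun i => i.2.image e.injective.injOn)
  refine ⟨e ⁻¹' G, fun i hi => ?_⟩
  obtain ⟨h1, h2⟩ := hG ⟨i, hi⟩
  constructor
  · intro hf
    apply h1
    refine (hf.image e).subset ?_
    rintro _ ⟨⟨x, hx, rfl⟩, hxG⟩
    exact ⟨x, ⟨hx, hxG⟩, rfl⟩
  · intro hf
    apply h2
    refine (hf.image e).subset ?_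
    rintro _ ⟨⟨x, hx, rfl⟩, hxG⟩
    exact ⟨x, ⟨hx, hxG⟩, rfl⟩

/-- Genericity: between `A ⊆ B` there is a set whose almost-inclusion relations to fewer than
continuum many test sets are only the forced ones. -/
theorem SplitHyp.generic (h : SplitHyp) {F : Type} (e : F ≃ ℕ) (κ : Type) (W : κ → Set F)
    (hκ : #κ < 𝔠) {A B : Set F} (hAB : A ⊆ B) :
    ∃ C : Set F, A ⊆ C ∧ C ⊆ B ∧ ∀ k, (AS C (W k) → AS B (W k)) ∧ (AS (W k) C → AS (W k) A) := by
  obtain ⟨G, hG⟩ := h.transfer e (κ × Bool)
    (fun p => if p.2 then (B \ A) \ W p.1 else (B \ A) ∩ W p.1) (by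
      rw [Cardinal.mk_prod, Cardinal.lift_id, Cardinal.lift_id]
      exact Cardinal.mul_lt_of_lt Cardinal.aleph0_le_continuum hκ
        (lt_of_lt_of_le (Cardinal.lt_aleph0_of_finite _) Cardinal.aleph0_le_continuum))
  refine ⟨A ∪ (G ∩ B), Set.subset_union_left, Set.union_subset hAB Set.inter_subset_right,
    fun k => ⟨fun hk => ?_, fun hk => ?_⟩⟩
  · by_contra hcon
    have h1 : ((B \ A) \ W k).Infinite := by
      intro hf
      apply hcon
      refine (hk.union hf).subset ?_
      intro x hx
      by_cases hxA : x ∈ A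
      · exact Or.inl ⟨Or.inl hxA, hx.2⟩
      · exact Or.inr ⟨⟨hx.1, hxA⟩, hx.2⟩
    have h2 := (hG (k, true) (by simpa using h1)).1
    apply h2
    refine hk.subset ?_
    intro x hx
    have hx1 : x ∈ (B \ A) \ W k := by simpa using hx.1
    exact ⟨Or.inr ⟨hx.2, hx1.1.1⟩, hx1.2⟩
  · by_contra hcon
    have h1 : ((B \ A) ∩ W k).Infinite := by
      intro hf
      apply hcon
      refine (hk.union hf).subset ?_
      intro x hx
      by_cases hxB : x ∈ B
      · exact Or.inr ⟨⟨hxB, hx.2⟩, hx.1⟩
      · refine Or.inl ⟨hx.1, ?_⟩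
        rintro (hxA | hxG)
        · exact hxB (hAB hxA)
        · exact hxB hxG.2
    have h2 := (hG (k, false) (by simpa using h1)).2
    apply h2
    refine hk.subset ?_
    intro x hx
    have hx1 : x ∈ (B \ A) ∩ W k := by simpa using hx.1
    refine ⟨hx1.2, ?_⟩
    rintro (hxA | hxG)
    · exact hx1.1.2 hxA
    · exact hx.2 hxG.1

/-- A general transfinite construction: if every compatible family of size less than continuum can
be extended to solve any given task, then there is a compatible family solving all tasks. -/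
theorem rec_family {D : Type 1} [Nonempty D] {T : Type} (hT : #T ≤ 𝔠) (C : D → D → Prop)
    (Ful : T → D → Prop)
    (hext : ∀ (ι : Type) (g : ι → D), #ι < 𝔠 → (∀ i j, C (g i) (g j)) → ∀ τ, ∃ d,
      Ful τ d ∧ C d d ∧ ∀ i, C (g i) d ∧ C d (g i)) :
    ∃ f : T → D, (∀ i j, C (f i) (f j)) ∧ ∀ τ, Ful τ (f τ) := by
  classical
  obtain ⟨e⟩ : Nonempty (T ↪ (𝔠 : Cardinal.{0}).ord.ToType) := by
    rw [← Cardinal.le_def, Cardinal.mk_toType, Cardinal.card_ord]
    exact hT
  let R : T → T → Prop := fun a b => e a < e b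
  have hwf : WellFounded R := InvImage.wf e wellFounded_lt
  have hcard : ∀ τ : T, #{a : T // R a τ} < 𝔠 := by
    intro τ
    have h1 : #{a : T // R a τ} ≤ #(Set.Iio (e τ)) := by
      refine Cardinal.mk_le_of_injective (f := fun a => (⟨e a.1, a.2⟩ : Set.Iio (e τ))) ?_
      intro a b hab
      have := congrArg Subtype.val hab
      exact Subtype.ext (e.injective this)
    exact lt_of_le_of_lt h1 (by simpa using Cardinal.mk_Iio_lt (e τ))
  let step : ∀ τ : T, (∀ a : T, R a τ → D) → D := fun τ ih =>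
    if h : (∀ i j : {a : T // R a τ}, C (ih i.1 i.2) (ih j.1 j.2)) then
      (hext {a : T // R a τ} (fun a => ih a.1 a.2) (hcard τ) h τ).choose
    else Classical.arbitrary D
  let f : T → D := hwf.fix step
  have hfeq : ∀ τ, f τ = step τ (fun a _ => f a) := fun τ => hwf.fix_eq step τ
  have hspec : ∀ τ, (∀ i j : {a : T // R a τ}, C (f i.1) (f j.1)) →
      Ful τ (f τ) ∧ C (f τ) (f τ) ∧ ∀ a, R a τ → C (f a) (f τ) ∧ C (f τ) (f a) := by
    intro τ h
    have h1 : f τ = (hext {a : T // R a τ} (fun a => f a.1) (hcard τ) h τ).choose := by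
      rw [hfeq]
      exact dif_pos h
    have h2 := (hext {a : T // R a τ} (fun a => f a.1) (hcard τ) h τ).choose_spec
    rw [← h1] at h2
    exact ⟨h2.1, h2.2.1, fun a ha => h2.2.2 ⟨a, ha⟩⟩
  have hall : ∀ τ, ∀ i j : {a : T // R a τ}, C (f i.1) (f j.1) := by
    intro τ
    induction τ using hwf.induction with
    | _ τ ih =>
      rintro ⟨i, hi⟩ ⟨j, hj⟩
      rcases lt_trichotomy (e i) (e j) with hij | hij | hij
      · exact ((hspec j (ih j hj)).2.2 i hij).1
      · have : i = j := e.injective hij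
        subst this
        exact (hspec i (ih i hi)).2.1
      · exact ((hspec i (ih i hi)).2.2 j hij).2
  refine ⟨f, fun i j => ?_, fun τ => (hspec τ (hall τ)).1⟩
  rcases lt_trichotomy (e i) (e j) with hij | hij | hij
  · exact ((hspec j (hall j)).2.2 i hij).1
  · have : i = j := e.injective hij
    subst this
    exact (hspec i (hall i)).2.1
  · exact ((hspec i (hall i)).2.2 j hij).2

end Vale.Agent.P068
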