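import Vale.Agent.P068.Basic

/-!
Decorated bases, compatibility, and the extension lemma.
-/

namespace Vale.Agent.P068

open Set Cardinal

/-- Vertices of the two-sided infinite path: side and depth. -/
abbrev V := Bool × ℕ

/-- The ground set at a vertex: `(false, k)` is the `k`-th inner element and `(true, k)` the `k`-th
outer element. -/
abbrev F := Bool × ℕ

/-- The next vertex away from the centre, on the same side. -/
def sc (v : V) : V := (v.1, v.2 + 1)

/-- The mirror image of a vertex on the other side. -/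
def opp (v : V) : V := (!v.1, v.2)

theorem opp_opp (v : V) : opp (opp v) = v := by
  simp [opp]

theorem sc_ne (v : V) : sc v ≠ v := by
  intro h
  have := congrArg Prod.snd h
  simp [sc] at this

theorem sc_inj {v w : V} (h : sc v = sc w) : v = w := by
  have h1 := congrArg Prod.fst h
  have h2 := congrArg Prod.snd h
  simp only [sc] at h1 h2
  exact Prod.ext h1 (by omega)

/-- The inner (`s = false`) or outer (`s = true`) part of a subset of `F`. -/
def part (s : Bool) (C : Set F) : Set ℕ := {k | (s, k) ∈ C}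

theorem part_mono {s : Bool} {A B : Set F} (h : A ⊆ B) : part s A ⊆ part s B :=
  fun _ hk => h hk

theorem AS.part {s : Bool} {A B : Set F} (h : AS A B) : AS (part s A) (part s B) := by
  have h2 : (Prod.snd '' (A \ B)).Finite := h.image _
  refine h2.subset ?_
  intro k hk
  exact ⟨(s, k), hk, rfl⟩

theorem AS_part_left {s : Bool} {C : Set F} {S : Set ℕ} :
    AS (part s C) S ↔ AS C {x | x.1 = s → x.2 ∈ S} := by
  constructor
  · intro h
    refine (h.image (fun k => ((s, k) : F))).subset ?_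
    rintro ⟨a, k⟩ ⟨hx, hx2⟩
    simp only [Set.mem_ofPred_eq, Classical.not_imp] at hx2
    obtain ⟨rfl, hk⟩ := hx2
    exact ⟨k, ⟨hx, hk⟩, rfl⟩
  · intro h
    refine (h.image Prod.snd).subset ?_
    rintro k ⟨hk, hkS⟩
    exact ⟨(s, k), ⟨hk, fun h2 => hkS (h2 rfl)⟩, rfl⟩

theorem AS_part_right {s : Bool} {C : Set F} {S : Set ℕ} :
    AS S (part s C) ↔ AS {x | x.1 = s ∧ x.2 ∈ S} C := by
  constructor
  · intro h
    refine (h.image (fun k => ((s, k) : F))).subset ?_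
    rintro ⟨a, k⟩ ⟨⟨ha, hk⟩, hx2⟩
    simp only at ha hk
    subst ha
    exact ⟨k, ⟨hk, hx2⟩, rfl⟩
  · intro h
    refine (h.image Prod.snd).subset ?_
    rintro k ⟨hk, hkS⟩
    exact ⟨(s, k), ⟨⟨rfl, hk⟩, hkS⟩, rfl⟩

/-- A decorated base: a vertex, a subset of the ground set at that vertex, a type (`true` for
inward, `false` for outward) and an ordinal rank. -/
structure Dec where
  /-- vertex -/
  v : V
  /-- base -/
  B : Set F
  /-- type -/
  t : Bool
  /-- rank -/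
  r : Ordinal.{0}

instance : Nonempty Dec := ⟨⟨(false, 0), ∅, true, 0⟩⟩

/-- Contributions of type `t` of a decorated base to the bundle on the inner side of `w`. -/
def con (d : Dec) (t : Bool) (w : V) (X : Set ℕ) : Prop :=
  (d.v = w ∧ d.t = t ∧ X = part false d.B) ∨
  (sc d.v = w ∧ d.t = t ∧ X = (part true d.B)ᶜ) ∨
  (w.2 = 0 ∧ d.v = opp w ∧ d.t = !t ∧ X = (part false d.B)ᶜ)

/-- Compatibility of decorated bases. -/
structure Cmp (d d' : Dec) : Prop where
  sep : ∀ w X Z, con d true w X → con d' false w Z → ¬ AS X Z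
  big : ∀ w X, con d true w X → ¬ AS X ∅
  small : ∀ w Z, con d false w Z → ¬ AS Set.univ Z
  anti : d.v = d'.v → d ≠ d' → ¬ AS d.B d'.B
  rkO : d'.v = sc d.v → d.t = true → d'.t = true → AS (part true d.B)ᶜ (part false d'.B) →
    d'.r < d.r
  rkU : d'.v = sc d.v → d.t = false → d'.t = false → AS (part false d'.B) (part true d.B)ᶜ →
    d'.r < d.r

/-- All contributions of type `t` of a family to the inner bundle of `w`, with the trivial ones. -/
def K {ι : Type} (g : ι → Dec) (t : Bool) (w : V) (X : Set ℕ) : Prop :=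
  (t = true ∧ X = Set.univ) ∨ (t = false ∧ X = ∅) ∨ ∃ i, con (g i) t w X

theorem K_sep {ι : Type} {g : ι → Dec} (hg : ∀ i j, Cmp (g i) (g j)) {w : V} {X Z : Set ℕ}
    (hX : K g true w X) (hZ : K g false w Z) : ¬ AS X Z := by
  rcases hX with ⟨-, rfl⟩ | ⟨h, -⟩ | ⟨i, hi⟩
  · rcases hZ with ⟨h, -⟩ | ⟨-, rfl⟩ | ⟨j, hj⟩
    · exact absurd h (by simp)
    · intro h
      unfold AS at h
      rw [Set.sdiff_empty] at h
      exact Set.infinite_univ h
    · exact (hg j j).small w Z hj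
  · exact absurd h (by simp)
  · rcases hZ with ⟨h, -⟩ | ⟨-, rfl⟩ | ⟨j, hj⟩
    · exact absurd h (by simp)
    · exact (hg i i).big w X hi
    · exact (hg i j).sep w X Z hi hj

theorem con_opp {d : Dec} {t : Bool} {w : V} {X : Set ℕ} (hw : w.2 = 0) (h : con d t (opp w) X) :
    con d (!t) w Xᶜ := by
  rcases h with ⟨h1, h2, h3⟩ | ⟨h1, h2, h3⟩ | ⟨h0, h1, h2, h3⟩
  · exact Or.inr (Or.inr ⟨hw, h1, by simpa using h2, by rw [h3]⟩)
  · exfalso
    have := congrArg Prod.snd h1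
    simp only [sc, opp, hw] at this
    omega
  · refine Or.inl ⟨by rw [h1, opp_opp], h2, by rw [h3, compl_compl]⟩

theorem K_opp {ι : Type} {g : ι → Dec} {t : Bool} {w : V} {X : Set ℕ} (hw : w.2 = 0)
    (h : K g t (opp w) X) : K g (!t) w Xᶜ := by
  rcases h with ⟨rfl, rfl⟩ | ⟨rfl, rfl⟩ | ⟨i, hi⟩
  · exact Or.inr (Or.inl ⟨rfl, by simp⟩)
  · exact Or.inl ⟨rfl, by simp⟩
  · exact Or.inr (Or.inr ⟨i, con_opp hw hi⟩)

/-- Atoms of a family: all sets of naturals from which contributions are built. -/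
def atm {ι : Type} (g : ι → Dec) : Option ι × Bool × Bool → Set ℕ
  | (none, _, b) => if b then Set.univ else ∅
  | (some i, s, b) => if b then part s (g i).B else (part s (g i).B)ᶜ

theorem atm_compl {ι : Type} (g : ι → Dec) (a : Option ι × Bool × Bool) :
    ∃ a', atm g a' = (atm g a)ᶜ := by
  rcases a with ⟨_ | i, s, b⟩
  · refine ⟨(none, s, !b), ?_⟩
    cases b <;> simp [atm]
  · refine ⟨(some i, s, !b), ?_⟩
    cases b <;> simp [atm]

theorem K_atm {ι : Type} {g : ι → Dec} {t : Bool} {w : V} {X : Set ℕ} (h : K g t w X) :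
    ∃ a, atm g a = X := by
  rcases h with ⟨rfl, rfl⟩ | ⟨rfl, rfl⟩ | ⟨i, hi⟩
  · exact ⟨(none, true, true), by simp [atm]⟩
  · exact ⟨(none, true, false), by simp [atm]⟩
  · rcases hi with ⟨h1, h2, rfl⟩ | ⟨h1, h2, rfl⟩ | ⟨h0, h1, h2, rfl⟩
    · exact ⟨(some i, false, true), by simp [atm]⟩
    · exact ⟨(some i, true, false), by simp [atm]⟩
    · exact ⟨(some i, false, false), by simp [atm]⟩

theorem card_tests {ι : Type} (hι : #ι < 𝔠) :
    #(ι ⊕ ((Option ι × Bool × Bool) × Bool × Bool)) < 𝔠 := by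
  have hfin : ∀ (α : Type) [Finite α], #α < 𝔠 := fun α _ =>
    lt_of_lt_of_le (Cardinal.lt_aleph0_of_finite _) Cardinal.aleph0_le_continuum
  have hprod : ∀ (α β : Type), #α < 𝔠 → #β < 𝔠 → #(α × β) < 𝔠 := by
    intro α β ha hb
    rw [Cardinal.mk_prod, Cardinal.lift_id, Cardinal.lift_id]
    exact Cardinal.mul_lt_of_lt Cardinal.aleph0_le_continuum ha hb
  have hopt : #(Option ι) < 𝔠 := by
    rw [Cardinal.mk_option]
    exact Cardinal.add_lt_of_lt Cardinal.aleph0_le_continuum hι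
      (lt_of_lt_of_le Cardinal.one_lt_aleph0 Cardinal.aleph0_le_continuum)
  rw [Cardinal.mk_sum, Cardinal.lift_id, Cardinal.lift_id]
  exact Cardinal.add_lt_of_lt Cardinal.aleph0_le_continuum hι
    (hprod _ _ (hprod _ _ hopt (hfin _)) (hfin _))

theorem generic_base (hS : SplitHyp) {ι : Type} (g : ι → Dec) (hι : #ι < 𝔠) {A B : Set F}
    (hAB : A ⊆ B) : ∃ C : Set F, A ⊆ C ∧ C ⊆ B ∧
      (∀ i, (AS C (g i).B → AS B (g i).B) ∧ (AS (g i).B C → AS (g i).B A)) ∧
      (∀ s a, AS (part s C) (atm g a) → AS (part s B) (atm g a)) ∧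
      (∀ s a, AS (atm g a) (part s C) → AS (atm g a) (part s A)) := by
  classical
  have e : F ≃ ℕ := (Equiv.boolProdEquivSum ℕ).trans (Equiv.natSumNatEquivNat)
  let W : ι ⊕ ((Option ι × Bool × Bool) × Bool × Bool) → Set F := fun x =>
    match x with
    | Sum.inl i => (g i).B
    | Sum.inr (a, s, b) =>
      if b then {x | x.1 = s → x.2 ∈ atm g a} else {x | x.1 = s ∧ x.2 ∈ atm g a}
  obtain ⟨C, hAC, hCB, hC⟩ := hS.generic e _ W (card_tests hι) hAB
  refine ⟨C, hAC, hCB, fun i => hC (Sum.inl i), fun s a h => ?_, fun s a h => ?_⟩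
  · rw [AS_part_left] at h ⊢
    have := (hC (Sum.inr (a, s, true))).1
    simp only [W, if_true] at this
    exact this h
  · rw [AS_part_right] at h ⊢
    have := (hC (Sum.inr (a, s, false))).2
    simp only [W, Bool.false_eq_true, if_false] at this
    exact this h

/-- Adding a base of type `true` (inward). -/
theorem feasO (hS : SplitHyp) {ι : Type} (g : ι → Dec) (hι : #ι < 𝔠)
    (hg : ∀ i j, Cmp (g i) (g j)) (v : V) {A B : Set F}
    (hAB : A ⊆ B)
    (hanti : ∀ i, (g i).v = v → ¬ AS (g i).B A ∧ ¬ AS B (g i).B)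
    (h1 : ∀ Z, K g false v Z → ¬ AS (part false B) Z)
    (h2 : ∀ Z, K g false (sc v) Z → ¬ AS (part true A)ᶜ Z)
    (h3 : ∃ r : Ordinal.{0}, (∀ i, sc (g i).v = v → (g i).t = true →
        AS (part true (g i).B)ᶜ (part false A) → r < (g i).r) ∧
      (∀ i, (g i).v = sc v → (g i).t = true →
        AS (part true A)ᶜ (part false (g i).B) → (g i).r < r)) :
    ∃ d : Dec, d.v = v ∧ A ⊆ d.B ∧ d.B ⊆ B ∧ Cmp d d ∧ ∀ i, Cmp (g i) d ∧ Cmp d (g i) := by
  obtain ⟨r, hr1, hr2⟩ := h3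
  obtain ⟨C, hAC, hCB, hC1, hC2, hC3⟩ := generic_base hS g hι hAB
  have k1 : ∀ Z, K g false v Z → ¬ AS (part false C) Z := by
    intro Z hZ hcon
    obtain ⟨a, rfl⟩ := K_atm hZ
    exact h1 _ hZ (hC2 _ _ hcon)
  have k2 : ∀ Z, K g false (sc v) Z → ¬ AS (part true C)ᶜ Z := by
    intro Z hZ hcon
    obtain ⟨a, rfl⟩ := K_atm hZ
    obtain ⟨a', ha'⟩ := atm_compl g a
    apply h2 _ hZ
    rw [AS.compl_left] at hcon ⊢
    rw [← ha'] at hcon ⊢
    exact hC3 _ _ hcon
  refine ⟨⟨v, C, true, r⟩, rfl, hAC, hCB, ?_⟩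
  -- contributions of the new base
  have c1 : ∀ w X, con ⟨v, C, true, r⟩ true w X → ∀ Z, K g false w Z → ¬ AS X Z := by
    rintro w X (⟨rfl, -, rfl⟩ | ⟨rfl, -, rfl⟩ | ⟨-, -, h, -⟩) Z hZ
    · exact k1 Z hZ
    · exact k2 Z hZ
    · exact absurd h (by simp)
  have c2 : ∀ w Z, con ⟨v, C, true, r⟩ false w Z → ∀ X, K g true w X → ¬ AS X Z := by
    rintro w Z (⟨-, h, -⟩ | ⟨-, h, -⟩ | ⟨hw, hv, -, rfl⟩) X hX
    · exact absurd h (by simp)
    · exact absurd h (by simp)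
    · simp only at hv
      have hw' : v.2 = 0 := by rw [hv]; exact hw
      have hX' : K g false v Xᶜ := by
        have h5 : w = opp v := by rw [hv, opp_opp]
        rw [h5] at hX
        exact K_opp hw' hX
      intro hcon
      apply k1 _ hX'
      rw [AS.compl_right]
      exact hcon
  have c3 : ∀ w X, con ⟨v, C, true, r⟩ true w X → ∀ Z, con ⟨v, C, true, r⟩ false w Z → False := by
    rintro w X (⟨h1, -, -⟩ | ⟨h1, -, -⟩ | ⟨-, -, h, -⟩) Z (⟨-, h, -⟩ | ⟨-, h, -⟩ | ⟨hw, hv, -, -⟩)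
    any_goals exact absurd h (by simp)
    · simp only at h1 hv
      have := congrArg Prod.fst hv
      rw [h1] at this
      simp [opp] at this
    · simp only at h1 hv
      rw [← h1] at hw
      simp [sc] at hw
  have hbig : ∀ w X, con ⟨v, C, true, r⟩ true w X → ¬ AS X ∅ := fun w X h =>
    c1 w X h ∅ (Or.inr (Or.inl ⟨rfl, rfl⟩))
  have hsmall : ∀ w Z, con ⟨v, C, true, r⟩ false w Z → ¬ AS Set.univ Z := fun w Z h =>
    c2 w Z h Set.univ (Or.inl ⟨rfl, rfl⟩)
  refine ⟨⟨fun w X Z hX hZ => (c3 w X hX Z hZ).elim, hbig, hsmall, fun _ h => (h rfl).elim,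
    fun h => (sc_ne _ h.symm).elim, fun h => (sc_ne _ h.symm).elim⟩, fun i => ⟨?_, ?_⟩⟩
  · refine ⟨fun w X Z hX hZ => c2 w Z hZ X (Or.inr (Or.inr ⟨i, hX⟩)), (hg i i).big, (hg i i).small,
      ?_, ?_, ?_⟩
    · intro hv _ hcon
      exact (hanti i hv).1 ((hC1 i).2 hcon)
    · intro hv ht _ hcon
      simp only at hv hcon ⊢
      refine hr1 i hv.symm ht ?_
      have := hC3 false (some i, true, false)
      simp only [atm, Bool.false_eq_true, if_false] at this
      exact this hcon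
    · intro _ _ h
      exact absurd h (by simp)
  · refine ⟨fun w X Z hX hZ => c1 w X hX Z (Or.inr (Or.inr ⟨i, hZ⟩)), hbig, hsmall, ?_, ?_, ?_⟩
    · intro hv _ hcon
      exact (hanti i hv.symm).2 ((hC1 i).1 hcon)
    · intro hv _ ht hcon
      simp only at hv hcon ⊢
      refine hr2 i hv ht ?_
      rw [AS.compl_left] at hcon ⊢
      have := hC3 true (some i, false, false)
      simp only [atm, Bool.false_eq_true, if_false] at this
      exact this hcon
    · intro _ h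
      exact absurd h (by simp)

/-- Adding a base of type `false` (outward). -/
theorem feasU (hS : SplitHyp) {ι : Type} (g : ι → Dec) (hι : #ι < 𝔠)
    (hg : ∀ i j, Cmp (g i) (g j)) (v : V) {A B : Set F}
    (hAB : A ⊆ B)
    (hanti : ∀ i, (g i).v = v → ¬ AS (g i).B A ∧ ¬ AS B (g i).B)
    (h1 : ∀ X, K g true v X → ¬ AS X (part false A))
    (h2 : ∀ X, K g true (sc v) X → ¬ AS X (part true B)ᶜ)
    (h3 : ∃ r : Ordinal.{0}, (∀ i, sc (g i).v = v → (g i).t = false →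
        AS (part false B) (part true (g i).B)ᶜ → r < (g i).r) ∧
      (∀ i, (g i).v = sc v → (g i).t = false →
        AS (part false (g i).B) (part true B)ᶜ → (g i).r < r)) :
    ∃ d : Dec, d.v = v ∧ A ⊆ d.B ∧ d.B ⊆ B ∧ Cmp d d ∧ ∀ i, Cmp (g i) d ∧ Cmp d (g i) := by
  obtain ⟨r, hr1, hr2⟩ := h3
  obtain ⟨C, hAC, hCB, hC1, hC2, hC3⟩ := generic_base hS g hι hAB
  have k1 : ∀ X, K g true v X → ¬ AS X (part false C) := by
    intro X hX hcon
    obtain ⟨a, rfl⟩ := K_atm hX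
    exact h1 _ hX (hC3 _ _ hcon)
  have k2 : ∀ X, K g true (sc v) X → ¬ AS X (part true C)ᶜ := by
    intro X hX hcon
    obtain ⟨a, rfl⟩ := K_atm hX
    obtain ⟨a', ha'⟩ := atm_compl g a
    apply h2 _ hX
    rw [AS.compl_right] at hcon ⊢
    rw [← ha'] at hcon ⊢
    exact hC2 _ _ hcon
  refine ⟨⟨v, C, false, r⟩, rfl, hAC, hCB, ?_⟩
  have c2 : ∀ w Z, con ⟨v, C, false, r⟩ false w Z → ∀ X, K g true w X → ¬ AS X Z := by
    rintro w Z (⟨rfl, -, rfl⟩ | ⟨rfl, -, rfl⟩ | ⟨-, -, h, -⟩) X hX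
    · exact k1 X hX
    · exact k2 X hX
    · exact absurd h (by simp)
  have c1 : ∀ w X, con ⟨v, C, false, r⟩ true w X → ∀ Z, K g false w Z → ¬ AS X Z := by
    rintro w X (⟨-, h, -⟩ | ⟨-, h, -⟩ | ⟨hw, hv, -, rfl⟩) Z hZ
    · exact absurd h (by simp)
    · exact absurd h (by simp)
    · simp only at hv
      have hw' : v.2 = 0 := by rw [hv]; exact hw
      have hZ' : K g true v Zᶜ := by
        have h5 : w = opp v := by rw [hv, opp_opp]
        rw [h5] at hZ
        exact K_opp hw' hZ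
      intro hcon
      apply k1 _ hZ'
      rw [AS.compl_left]
      exact hcon
  have c3 : ∀ w X, con ⟨v, C, false, r⟩ true w X → ∀ Z, con ⟨v, C, false, r⟩ false w Z →
      False := by
    rintro w X (⟨-, h, -⟩ | ⟨-, h, -⟩ | ⟨hw, hv, -, -⟩) Z (⟨h1, -, -⟩ | ⟨h1, -, -⟩ | ⟨-, -, h, -⟩)
    any_goals exact absurd h (by simp)
    · simp only at h1 hv
      have := congrArg Prod.fst hv
      rw [h1] at this
      simp [opp] at this
    · simp only at h1 hv
      rw [← h1] at hw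
      simp [sc] at hw
  have hbig : ∀ w X, con ⟨v, C, false, r⟩ true w X → ¬ AS X ∅ := fun w X h =>
    c1 w X h ∅ (Or.inr (Or.inl ⟨rfl, rfl⟩))
  have hsmall : ∀ w Z, con ⟨v, C, false, r⟩ false w Z → ¬ AS Set.univ Z := fun w Z h =>
    c2 w Z h Set.univ (Or.inl ⟨rfl, rfl⟩)
  refine ⟨⟨fun w X Z hX hZ => (c3 w X hX Z hZ).elim, hbig, hsmall, fun _ h => (h rfl).elim,
    fun h => (sc_ne _ h.symm).elim, fun h => (sc_ne _ h.symm).elim⟩, fun i => ⟨?_, ?_⟩⟩
  · refine ⟨fun w X Z hX hZ => c2 w Z hZ X (Or.inr (Or.inr ⟨i, hX⟩)), (hg i i).big, (hg i i).small,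
      ?_, ?_, ?_⟩
    · intro hv _ hcon
      exact (hanti i hv).1 ((hC1 i).2 hcon)
    · intro _ _ h
      exact absurd h (by simp)
    · intro hv ht _ hcon
      simp only at hv hcon ⊢
      refine hr1 i hv.symm ht ?_
      have := hC2 false (some i, true, false)
      simp only [atm, Bool.false_eq_true, if_false] at this
      exact this hcon
  · refine ⟨fun w X Z hX hZ => c1 w X hX Z (Or.inr (Or.inr ⟨i, hZ⟩)), hbig, hsmall, ?_, ?_, ?_⟩
    · intro hv _ hcon
      exact (hanti i hv.symm).2 ((hC1 i).1 hcon)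
    · intro _ h
      exact absurd h (by simp)
    · intro hv _ ht hcon
      simp only at hv hcon ⊢
      refine hr2 i hv ht ?_
      rw [AS.compl_right] at hcon ⊢
      have := hC2 true (some i, false, false)
      simp only [atm, Bool.false_eq_true, if_false] at this
      exact this hcon

theorem Cmp.not_univ {d : Dec} (h : Cmp d d) : ¬ AS Set.univ d.B := by
  intro hcon
  rcases hd : d.t with _ | _
  · exact h.small d.v _ (Or.inl ⟨rfl, hd, rfl⟩) (hcon.part (s := false))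
  · refine h.big (sc d.v) _ (Or.inr (Or.inl ⟨rfl, hd, rfl⟩)) ?_
    rw [AS.compl_left]
    have := hcon.part (s := true)
    simpa [part] using this

theorem Cmp.not_empty {d : Dec} (h : Cmp d d) : ¬ AS d.B ∅ := by
  intro hcon
  rcases hd : d.t with _ | _
  · refine h.small (sc d.v) _ (Or.inr (Or.inl ⟨rfl, hd, rfl⟩)) ?_
    rw [AS.compl_right]
    have := hcon.part (s := true)
    simpa [part] using this
  · exact h.big d.v _ (Or.inl ⟨rfl, hd, rfl⟩) (hcon.part (s := false))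

/-- The extension lemma. -/
theorem ext_task (hS : SplitHyp) {ι : Type} (g : ι → Dec) (hι : #ι < 𝔠)
    (hg : ∀ i j, Cmp (g i) (g j)) (v : V) {I Y : Set F} (hIY : I ⊆ Y) :
    ∃ d : Dec, d.v = v ∧ (AS d.B I ∨ AS Y d.B ∨ (AS I d.B ∧ AS d.B Y)) ∧ Cmp d d ∧
      ∀ i, Cmp (g i) d ∧ Cmp d (g i) := by
  by_cases hful : ∃ i, (g i).v = v ∧ (AS (g i).B I ∨ AS Y (g i).B ∨ (AS I (g i).B ∧ AS (g i).B Y))
  · obtain ⟨i, hi, hi2⟩ := hful
    exact ⟨g i, hi, hi2, hg i i, fun j => ⟨hg j i, hg i j⟩⟩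
  push Not at hful
  obtain ⟨s, hs⟩ : ∃ s : Ordinal.{0}, ∀ i, (g i).r < s := by
    obtain ⟨s, hs⟩ := Ordinal.bddAbove_of_small (s := Set.range (fun i => (g i).r))
    exact ⟨Order.succ s, fun i => Order.lt_succ_of_le (hs ⟨i, rfl⟩)⟩
  have KO : ∀ i, (g i).v = v → (g i).t = true → K g true v (part false (g i).B) :=
    fun i h1 h2 => Or.inr (Or.inr ⟨i, Or.inl ⟨h1, h2, rfl⟩⟩)
  have KU : ∀ i, (g i).v = v → (g i).t = false → K g false v (part false (g i).B) :=
    fun i h1 h2 => Or.inr (Or.inr ⟨i, Or.inl ⟨h1, h2, rfl⟩⟩)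
  have KpO : ∀ i, sc (g i).v = v → (g i).t = true → K g true v (part true (g i).B)ᶜ :=
    fun i h1 h2 => Or.inr (Or.inr ⟨i, Or.inr (Or.inl ⟨h1, h2, rfl⟩)⟩)
  have KpU : ∀ i, sc (g i).v = v → (g i).t = false → K g false v (part true (g i).B)ᶜ :=
    fun i h1 h2 => Or.inr (Or.inr ⟨i, Or.inr (Or.inl ⟨h1, h2, rfl⟩)⟩)
  have KoO : ∀ i, (g i).v = v → (g i).t = true → K g true (sc v) (part true (g i).B)ᶜ :=
    fun i h1 h2 => Or.inr (Or.inr ⟨i, Or.inr (Or.inl ⟨by rw [h1], h2, rfl⟩)⟩)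
  have KoU : ∀ i, (g i).v = v → (g i).t = false → K g false (sc v) (part true (g i).B)ᶜ :=
    fun i h1 h2 => Or.inr (Or.inr ⟨i, Or.inr (Or.inl ⟨by rw [h1], h2, rfl⟩)⟩)
  have hemp : ∀ w, K g false w ∅ := fun w => Or.inr (Or.inl ⟨rfl, rfl⟩)
  have huni : ∀ w, K g true w Set.univ := fun w => Or.inl ⟨rfl, rfl⟩
  -- first option
  by_cases ha : (∀ i, (g i).v = v → ¬ AS (g i).B Y) ∧
      (∀ X, K g true v X → ¬ AS X (part false Y))
  · obtain ⟨d, hd1, hd2, hd3, hd4, hd5⟩ := feasU hS g hι hg v (Set.subset_univ Y)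
      (fun i hi => ⟨ha.1 i hi, (hg i i).not_univ⟩) ha.2
      (fun X hX hcon => K_sep hg hX (hemp _) (by simpa [part] using hcon))
      ⟨s, fun i h1 h2 h3 => (K_sep hg (huni v) (KpU i h1 h2) (by simpa [part] using h3)).elim,
        fun i _ _ _ => hs i⟩
    exact ⟨d, hd1, Or.inr (Or.inl (AS.of_subset hd2)), hd4, hd5⟩
  -- second option
  by_cases hb : (∀ i, (g i).v = v → ¬ AS I (g i).B) ∧
      (∀ Z, K g false v Z → ¬ AS (part false I) Z)
  · obtain ⟨d, hd1, hd2, hd3, hd4, hd5⟩ := feasO hS g hι hg v (Set.empty_subset I)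
      (fun i hi => ⟨(hg i i).not_empty, hb.1 i hi⟩) hb.2
      (fun Z hZ hcon => K_sep hg (huni _) hZ (by simpa [part] using hcon))
      ⟨s, fun i h1 h2 h3 => (K_sep hg (KpO i h1 h2) (hemp v) (by simpa [part] using h3)).elim,
        fun i _ _ _ => hs i⟩
    exact ⟨d, hd1, Or.inl (AS.of_subset hd3), hd4, hd5⟩
  -- third option: an actual base between
  have hanti : ∀ i, (g i).v = v → ¬ AS (g i).B I ∧ ¬ AS Y (g i).B :=
    fun i hi => ⟨(hful i hi).1, (hful i hi).2.1⟩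
  have hfin : (∃ d : Dec, d.v = v ∧ I ⊆ d.B ∧ d.B ⊆ Y ∧ Cmp d d ∧
      ∀ i, Cmp (g i) d ∧ Cmp d (g i)) → ∃ d : Dec, d.v = v ∧
      (AS d.B I ∨ AS Y d.B ∨ (AS I d.B ∧ AS d.B Y)) ∧ Cmp d d ∧
      ∀ i, Cmp (g i) d ∧ Cmp d (g i) := by
    rintro ⟨d, hd1, hd2, hd3, hd4, hd5⟩
    exact ⟨d, hd1, Or.inr (Or.inr ⟨AS.of_subset hd2, AS.of_subset hd3⟩), hd4, hd5⟩
  have hP : part false I ⊆ part false Y := part_mono hIY
  have hQ : (part true Y)ᶜ ⊆ (part true I)ᶜ := Set.compl_subset_compl.2 (part_mono hIY)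
  have ha' : (∃ X, K g true v X ∧ AS X (part false Y)) ∨
      (∃ i, (g i).v = v ∧ (g i).t = false ∧ AS (g i).B Y) := by
    by_contra hcon
    push Not at hcon
    apply ha
    refine ⟨fun i hi h => ?_, hcon.1⟩
    rcases ht : (g i).t with _ | _
    · exact hcon.2 i hi ht h
    · exact hcon.1 _ (KO i hi ht) h.part
  have hb' : (∃ Z, K g false v Z ∧ AS (part false I) Z) ∨
      (∃ i, (g i).v = v ∧ (g i).t = true ∧ AS I (g i).B) := by
    by_contra hcon
    push Not at hcon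
    apply hb
    refine ⟨fun i hi h => ?_, hcon.1⟩
    rcases ht : (g i).t with _ | _
    · exact hcon.1 _ (KU i hi ht) h.part
    · exact hcon.2 i hi ht h
  rcases ha' with ⟨X1, hX1, hX1Y⟩ | ⟨j, hj1, hj2, hj3⟩
  · have O1 : ∀ Z, K g false v Z → ¬ AS (part false Y) Z := fun Z hZ hcon =>
      K_sep hg hX1 hZ (hX1Y.trans hcon)
    rcases hb' with ⟨Z2, hZ2, hZ2I⟩ | ⟨k, hk1, hk2, hk3⟩
    · have U1 : ∀ X, K g true v X → ¬ AS X (part false I) := fun X hX hcon =>
        K_sep hg hX hZ2 (hcon.trans hZ2I)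
      by_cases O2 : ∀ Z, K g false (sc v) Z → ¬ AS (part true I)ᶜ Z
      · exact hfin (feasO hS g hι hg v hIY hanti O1 O2
          ⟨s, fun i h1 h2 h3 => (K_sep hg (KpO i h1 h2) hZ2 (h3.trans hZ2I)).elim,
            fun i _ _ _ => hs i⟩)
      · push Not at O2
        obtain ⟨Z, hZ, hZI⟩ := O2
        exact hfin (feasU hS g hι hg v hIY hanti U1
          (fun X hX hcon => K_sep hg hX hZ ((hcon.mono_right hQ).trans hZI))
          ⟨s, fun i h1 h2 h3 => (K_sep hg hX1 (KpU i h1 h2) (hX1Y.trans h3)).elim,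
            fun i _ _ _ => hs i⟩)
    · have O2 : ∀ Z, K g false (sc v) Z → ¬ AS (part true I)ᶜ Z := fun Z hZ hcon =>
        K_sep hg (KoO k hk1 hk2) hZ ((AS.compl hk3.part).trans hcon)
      exact hfin (feasO hS g hι hg v hIY hanti O1 O2
        ⟨(g k).r, fun i h1 h2 h3 => (hg i k).rkO (hk1.trans h1.symm) h2 hk2 (h3.trans hk3.part),
          fun i h1 h2 h3 => (hg k i).rkO (by rw [h1, hk1]) hk2 h2
            ((AS.compl hk3.part).trans h3)⟩)
  · have U2 : ∀ X, K g true (sc v) X → ¬ AS X (part true Y)ᶜ := fun X hX hcon =>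
      K_sep hg hX (KoU j hj1 hj2) (hcon.trans (AS.compl hj3.part))
    have U3 : ∃ r : Ordinal.{0}, (∀ i, sc (g i).v = v → (g i).t = false →
        AS (part false Y) (part true (g i).B)ᶜ → r < (g i).r) ∧
      (∀ i, (g i).v = sc v → (g i).t = false →
        AS (part false (g i).B) (part true Y)ᶜ → (g i).r < r) :=
      ⟨(g j).r, fun i h1 h2 h3 => (hg i j).rkU (hj1.trans h1.symm) h2 hj2 (hj3.part.trans h3),
          fun i h1 h2 h3 => (hg j i).rkU (by rw [h1, hj1]) hj2 h2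
            (h3.trans (AS.compl hj3.part))⟩
    rcases hb' with ⟨Z2, hZ2, hZ2I⟩ | ⟨k, hk1, hk2, hk3⟩
    · have U1 : ∀ X, K g true v X → ¬ AS X (part false I) := fun X hX hcon =>
        K_sep hg hX hZ2 (hcon.trans hZ2I)
      exact hfin (feasU hS g hι hg v hIY hanti U1 U2 U3)
    · have O2 : ∀ Z, K g false (sc v) Z → ¬ AS (part true I)ᶜ Z := fun Z hZ hcon =>
        K_sep hg (KoO k hk1 hk2) hZ ((AS.compl hk3.part).trans hcon)
      by_cases O1 : ∀ Z, K g false v Z → ¬ AS (part false Y) Z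
      · exact hfin (feasO hS g hι hg v hIY hanti O1 O2
          ⟨(g k).r, fun i h1 h2 h3 => (hg i k).rkO (hk1.trans h1.symm) h2 hk2 (h3.trans hk3.part),
            fun i h1 h2 h3 => (hg k i).rkO (by rw [h1, hk1]) hk2 h2
              ((AS.compl hk3.part).trans h3)⟩)
      · push Not at O1
        obtain ⟨Z, hZ, hZY⟩ := O1
        exact hfin (feasU hS g hι hg v hIY hanti
          (fun X hX hcon => K_sep hg hX hZ ((hcon.mono_right hP).trans hZY)) U2 U3)

/-- Tasks. -/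
abbrev Task := {p : V × Set F × Set F // p.2.1 ⊆ p.2.2}

/-- The compatible family solving all tasks. -/
theorem exists_fam (hS : SplitHyp) : ∃ f : Task → Dec, (∀ i j, Cmp (f i) (f j)) ∧
    ∀ v I Y, I ⊆ Y → ∃ τ, (f τ).v = v ∧
      (AS (f τ).B I ∨ AS Y (f τ).B ∨ (AS I (f τ).B ∧ AS (f τ).B Y)) := by
  have hT : #Task ≤ 𝔠 := by
    refine (Cardinal.mk_subtype_le _).trans ?_
    have h1 : #(Set F) = 𝔠 := by
      rw [Cardinal.mk_set, Cardinal.mk_eq_aleph0, Cardinal.two_power_aleph0]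
    have h2 : #V = ℵ₀ := Cardinal.mk_eq_aleph0 _
    have h3 : #(Set F × Set F) = 𝔠 := by
      rw [← Cardinal.mul_def, h1, Cardinal.continuum_mul_self]
    have h4 : #(V × (Set F × Set F)) = #V * #(Set F × Set F) := (Cardinal.mul_def _ _).symm
    rw [h4, h3, h2, Cardinal.aleph0_mul_continuum]
  obtain ⟨f, hf1, hf2⟩ := rec_family hT Cmp
    (fun τ d => d.v = τ.1.1 ∧ (AS d.B τ.1.2.1 ∨ AS τ.1.2.2 d.B ∨
      (AS τ.1.2.1 d.B ∧ AS d.B τ.1.2.2)))
    (by
      intro ι g hι hg τ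
      obtain ⟨d, h1, h2, h3, h4⟩ := ext_task hS g hι hg τ.1.1 τ.2
      exact ⟨d, ⟨h1, h2⟩, h3, h4⟩)
  exact ⟨f, hf1, fun v I Y hIY => ⟨⟨(v, I, Y), hIY⟩, (hf2 ⟨(v, I, Y), hIY⟩).1,
    (hf2 ⟨(v, I, Y), hIY⟩).2⟩⟩

end Vale.Agent.P068
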