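import Vale.Agent.P068.Basic

/-!
Uniform matroids from families of sets that are pairwise incomparable modulo finite sets and solve
all tasks.
-/

namespace Vale.Agent.P068

open Set

/-- A family of prototype bases. -/
structure UFam {F : Type} (𝓑 : Set (Set F)) : Prop where
  anti : ∀ B ∈ 𝓑, ∀ B' ∈ 𝓑, AS B B' → B = B'
  task : ∀ I Y, I ⊆ Y → ∃ B ∈ 𝓑, AS B I ∨ AS Y B ∨ (AS I B ∧ AS B Y)

/-- Independence: `I` can be obtained by finitely many changes from a subset of a prototype base
without exceeding its size. -/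
def UInd {F : Type} (𝓑 : Set (Set F)) (I : Set F) : Prop :=
  ∃ B ∈ 𝓑, (I \ B).Finite ∧ (I \ B).encard ≤ (B \ I).encard

variable {F : Type} {𝓑 : Set (Set F)}

theorem key_succ {I J B : Set F} {y : F} (hIJ : I ⊆ J) (hyJ : y ∈ J) (hyI : y ∉ I)
    (h : (J \ B).encard ≤ (B \ J).encard) : (I \ B).encard + 1 ≤ (B \ I).encard := by
  by_cases hyB : y ∈ B
  · have h1 : (I \ B).encard ≤ (J \ B).encard := encard_le_encard (sdiff_subset_sdiff_left hIJ)
    have h2 : (insert y (B \ J)).encard ≤ (B \ I).encard := by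
      apply encard_le_encard
      rintro x (rfl | hx)
      · exact ⟨hyB, hyI⟩
      · exact ⟨hx.1, fun hxI => hx.2 (hIJ hxI)⟩
    rw [encard_insert_of_notMem (fun hx => hx.2 hyJ)] at h2
    calc (I \ B).encard + 1 ≤ (J \ B).encard + 1 := by gcongr
      _ ≤ (B \ J).encard + 1 := by gcongr
      _ ≤ _ := h2
  · have h1 : (insert y (I \ B)).encard ≤ (J \ B).encard := by
      apply encard_le_encard
      rintro x (rfl | hx)
      · exact ⟨hyJ, hyB⟩
      · exact ⟨hIJ hx.1, hx.2⟩
    rw [encard_insert_of_notMem (fun hx => hyI hx.1)] at h1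
    exact h1.trans (h.trans (encard_le_encard (sdiff_subset_sdiff_right hIJ)))

theorem UInd.subset {I J : Set F} (hJ : UInd 𝓑 J) (hIJ : I ⊆ J) : UInd 𝓑 I := by
  obtain ⟨B, hB, hf, hle⟩ := hJ
  refine ⟨B, hB, hf.subset (sdiff_subset_sdiff_left hIJ), ?_⟩
  exact (encard_le_encard (sdiff_subset_sdiff_left hIJ)).trans
    (hle.trans (encard_le_encard (sdiff_subset_sdiff_right hIJ)))

theorem UInd.insert {I J : Set F} (hJ : UInd 𝓑 J) (hIJ : I ⊆ J) {y : F} (hyJ : y ∈ J)
    (hyI : y ∉ I) {x : F} (hx : x ∉ I) : UInd 𝓑 (insert x I) := by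
  obtain ⟨B, hB, hf, hle⟩ := hJ
  have hk := key_succ hIJ hyJ hyI hle
  have hfI : (I \ B).Finite := hf.subset (sdiff_subset_sdiff_left hIJ)
  refine ⟨B, hB, ?_, ?_⟩
  · refine (hfI.insert x).subset ?_
    rintro z ⟨rfl | hz, hzB⟩
    · exact Or.inl rfl
    · exact Or.inr ⟨hz, hzB⟩
  · by_cases hxB : x ∈ B
    · have h1 : (Insert.insert x I : Set F) \ B ⊆ I \ B := by
        rintro z ⟨rfl | hz, hzB⟩
        · exact (hzB hxB).elim
        · exact ⟨hz, hzB⟩
      have h2 : B \ I ⊆ Insert.insert x (B \ (Insert.insert x I)) := by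
        intro z hz
        by_cases hzx : z = x
        · exact Or.inl hzx
        · refine Or.inr ⟨hz.1, ?_⟩
          rintro (h | h)
          · exact hzx h
          · exact hz.2 h
      have h3 := (encard_le_encard h2).trans (encard_insert_le _ _)
      have h4 : (I \ B).encard + 1 ≤ (B \ (Insert.insert x I)).encard + 1 := hk.trans h3
      have h5 : (I \ B).encard ≤ (B \ (Insert.insert x I)).encard :=
        (ENat.add_le_add_iff_right (by simp)).1 h4
      exact (encard_le_encard h1).trans h5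
    · have h1 : (Insert.insert x I : Set F) \ B ⊆ Insert.insert x (I \ B) := by
        rintro z ⟨rfl | hz, hzB⟩
        · exact Or.inl rfl
        · exact Or.inr ⟨hz, hzB⟩
      have h2 : B \ I ⊆ B \ (Insert.insert x I) := by
        intro z hz
        refine ⟨hz.1, ?_⟩
        rintro (h | h)
        · exact hxB (h ▸ hz.1)
        · exact hz.2 h
      exact ((encard_le_encard h1).trans (encard_insert_le _ _)).trans
        (hk.trans (encard_le_encard h2))

theorem maximal_of_exact (h : UFam 𝓑) {J B : Set F} (hB : B ∈ 𝓑) (h1 : (J \ B).Finite)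
    (h2 : (B \ J).Finite) (h3 : (J \ B).encard = (B \ J).encard) : Maximal (UInd 𝓑) J := by
  refine ⟨⟨B, hB, h1, h3.le⟩, fun J' hJ' hJJ' => ?_⟩
  by_contra hcon
  obtain ⟨y, hy, hyJ⟩ := Set.not_subset.1 hcon
  obtain ⟨B', hB', hf, hle⟩ := hJ'
  have hBB' : B = B' := by
    refine h.anti B hB B' hB' ?_
    have e1 : AS B J := h2
    have e2 : AS J' B' := hf
    exact (e1.mono_right hJJ').trans e2
  subst hBB'
  have hk := key_succ hJJ' hy hyJ hle
  rw [h3] at hk
  have hfin : (B \ J).encard ≠ ⊤ := by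
    rw [Set.encard_ne_top_iff]
    exact h2
  exact absurd hk (by
    rw [not_le]
    exact ENat.lt_add_one_iff hfin |>.2 le_rfl)

theorem UFam.exists_indep (h : UFam 𝓑) : UInd 𝓑 ∅ := by
  obtain ⟨B, hB, -⟩ := h.task ∅ ∅ le_rfl
  exact ⟨B, hB, by simp, by simp⟩

theorem UFam.maximal_in (h : UFam 𝓑) {I X : Set F} (hI : UInd 𝓑 I) (hIX : I ⊆ X) :
    ∃ J, I ⊆ J ∧ Maximal (fun K => UInd 𝓑 K ∧ K ⊆ X) J := by
  by_cases hX : UInd 𝓑 X
  · exact ⟨X, hIX, ⟨hX, le_rfl⟩, fun K hK _ => hK.2⟩
  obtain ⟨B', hB', hf', hle'⟩ := hI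
  obtain ⟨B, hB, hIB, hBX⟩ : ∃ B ∈ 𝓑, AS I B ∧ AS B X := by
    obtain ⟨B, hB, h1 | h1 | h1⟩ := h.task I X hIX
    · have : B = B' := h.anti B hB B' hB' (h1.trans hf')
      subst this
      exact ⟨B, hB, hf', h1.mono_right hIX⟩
    · refine ⟨B, hB, h1.mono_left hIX, ?_⟩
      by_contra hcon
      apply hX
      refine ⟨B, hB, h1, ?_⟩
      rw [Set.encard_eq_top_iff.2 hcon]
      exact le_top
    · exact ⟨B, hB, h1⟩
  have hle : (I \ B).encard ≤ (B \ I).encard := by
    by_cases hfin : (B \ I).Finite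
    · have : B = B' := h.anti B hB B' hB' (AS.trans hfin hf')
      subst this
      exact hle'
    · rw [Set.encard_eq_top_iff.2 hfin]
      exact le_top
  have hlt : (B \ X).encard < (X \ B).encard := by
    by_cases hfin : (X \ B).Finite
    · by_contra hcon
      exact hX ⟨B, hB, hfin, not_lt.1 hcon⟩
    · rw [Set.encard_eq_top_iff.2 hfin]
      exact hBX.encard_lt_top
  -- names for the cardinalities
  obtain ⟨a, ha⟩ : ∃ a : ℕ, (I \ B).encard = a := ⟨_, (Set.Finite.encard_eq_coe hIB)⟩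
  obtain ⟨b, hb⟩ : ∃ b : ℕ, (B \ X).encard = b := ⟨_, (Set.Finite.encard_eq_coe hBX)⟩
  have hS : (B \ I).encard = b + ((B ∩ X) \ I).encard := by
    rw [← hb, ← Set.encard_union_eq]
    · congr 1
      ext x
      constructor
      · rintro ⟨h1, h2⟩
        by_cases hxX : x ∈ X
        · exact Or.inr ⟨⟨h1, hxX⟩, h2⟩
        · exact Or.inl ⟨h1, hxX⟩
      · rintro (⟨h1, h2⟩ | ⟨h1, h2⟩)
        · exact ⟨h1, fun hx => h2 (hIX hx)⟩
        · exact ⟨h1.1, h2⟩
    · rw [Set.disjoint_left]
      rintro x ⟨h1, h2⟩ ⟨h3, h4⟩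
      exact h2 h3.2
  have hT : (X \ B).encard = a + ((X \ B) \ I).encard := by
    rw [← ha, ← Set.encard_union_eq]
    · congr 1
      ext x
      constructor
      · rintro ⟨h1, h2⟩
        by_cases hxI : x ∈ I
        · exact Or.inl ⟨hxI, h2⟩
        · exact Or.inr ⟨⟨h1, h2⟩, hxI⟩
      · rintro (⟨h1, h2⟩ | ⟨h1, h2⟩)
        · exact ⟨hIX h1, h2⟩
        · exact h1
    · rw [Set.disjoint_left]
      rintro x ⟨h1, h2⟩ ⟨h3, h4⟩
      exact h4 h1
  obtain ⟨J, hIJ, hJX, hJ1, hJ2⟩ : ∃ J, I ⊆ J ∧ J ⊆ X ∧ (∃ n : ℕ, (J \ B).encard = n ∧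
      (B \ J).encard = n) ∧ True := by
    rcases le_or_gt a b with hab | hab
    · obtain ⟨T, hTs, hTc⟩ := Set.exists_subset_encard_eq (s := (X \ B) \ I)
        (k := ((b - a : ℕ) : ℕ∞)) (by
          rw [hb, hT] at hlt
          by_contra hcon
          rw [not_le] at hcon
          obtain ⟨c, hc⟩ := ENat.ne_top_iff_exists.1 (ne_top_of_lt hcon)
          rw [← hc] at hlt hcon
          have h1 : b < a + c := by exact_mod_cast hlt
          have h2 : c < b - a := by exact_mod_cast hcon
          omega)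
      refine ⟨I ∪ (B ∩ X) ∪ T, fun x hx => Or.inl (Or.inl hx), ?_, ⟨b, ?_, ?_⟩, trivial⟩
      · rintro x ((hx | hx) | hx)
        · exact hIX hx
        · exact hx.2
        · exact (hTs hx).1.1
      · have : (I ∪ (B ∩ X) ∪ T) \ B = (I \ B) ∪ T := by
          ext x
          constructor
          · rintro ⟨(hx | hx) | hx, hxB⟩
            · exact Or.inl ⟨hx, hxB⟩
            · exact (hxB hx.1).elim
            · exact Or.inr hx
          · rintro (hx | hx)
            · exact ⟨Or.inl (Or.inl hx.1), hx.2⟩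
            · exact ⟨Or.inr hx, (hTs hx).1.2⟩
        rw [this, Set.encard_union_eq, ha, hTc]
        · norm_cast
          omega
        · rw [Set.disjoint_left]
          intro x hx hxT
          exact (hTs hxT).2 hx.1
      · have : B \ (I ∪ (B ∩ X) ∪ T) = B \ X := by
          ext x
          constructor
          · rintro ⟨h1, h2⟩
            exact ⟨h1, fun hxX => h2 (Or.inl (Or.inr ⟨h1, hxX⟩))⟩
          · rintro ⟨h1, h2⟩
            refine ⟨h1, ?_⟩
            rintro ((hx | hx) | hx)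
            · exact h2 (hIX hx)
            · exact h2 hx.2
            · exact h2 (hTs hx).1.1
        rw [this, hb]
    · obtain ⟨S, hSs, hSc⟩ := Set.exists_subset_encard_eq (s := (B ∩ X) \ I)
        (k := ((a - b : ℕ) : ℕ∞)) (by
          rw [ha, hS] at hle
          by_contra hcon
          rw [not_le] at hcon
          obtain ⟨c, hc⟩ := ENat.ne_top_iff_exists.1 (ne_top_of_lt hcon)
          rw [← hc] at hle hcon
          have h1 : a ≤ b + c := by exact_mod_cast hle
          have h2 : c < a - b := by exact_mod_cast hcon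
          omega)
      refine ⟨(I ∪ (B ∩ X)) \ S, fun x hx => ⟨Or.inl hx, fun hxS => (hSs hxS).2 hx⟩, ?_,
        ⟨a, ?_, ?_⟩, trivial⟩
      · rintro x ⟨hx | hx, -⟩
        · exact hIX hx
        · exact hx.2
      · have : ((I ∪ (B ∩ X)) \ S) \ B = I \ B := by
          ext x
          constructor
          · rintro ⟨⟨hx | hx, -⟩, hxB⟩
            · exact ⟨hx, hxB⟩
            · exact (hxB hx.1).elim
          · rintro ⟨h1, h2⟩
            exact ⟨⟨Or.inl h1, fun hxS => (hSs hxS).2 h1⟩, h2⟩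
        rw [this, ha]
      · have : B \ ((I ∪ (B ∩ X)) \ S) = (B \ X) ∪ S := by
          ext x
          constructor
          · rintro ⟨h1, h2⟩
            by_cases hxX : x ∈ X
            · right
              by_contra hxS
              exact h2 ⟨Or.inr ⟨h1, hxX⟩, hxS⟩
            · exact Or.inl ⟨h1, hxX⟩
          · rintro (⟨h1, h2⟩ | hx)
            · refine ⟨h1, ?_⟩
              rintro ⟨hx | hx, -⟩
              · exact h2 (hIX hx)
              · exact h2 hx.2
            · exact ⟨(hSs hx).1.1, fun h2 => h2.2 hx⟩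
        rw [this, Set.encard_union_eq, hb, hSc]
        · norm_cast
          omega
        · rw [Set.disjoint_left]
          intro x hx hxS
          exact hx.2 (hSs hxS).1.2
  obtain ⟨n, hn1, hn2⟩ := hJ1
  have hmax : Maximal (UInd 𝓑) J := by
    refine maximal_of_exact h hB ?_ ?_ (hn1.trans hn2.symm)
    · rw [← Set.encard_ne_top_iff, hn1]
      exact ENat.natCast_ne_top n
    · rw [← Set.encard_ne_top_iff, hn2]
      exact ENat.natCast_ne_top n
  exact ⟨J, hIJ, ⟨hmax.1, hJX⟩, fun K hK hJK => hmax.2 hK.1 hJK⟩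

/-- The uniform matroid of a family of prototype bases. -/
def UM (h : UFam 𝓑) : Matroid F := IndepMatroid.matroid
  { E := Set.univ
    Indep := UInd 𝓑
    indep_empty := h.exists_indep
    indep_subset := fun _ _ hJ hIJ => hJ.subset hIJ
    indep_aug := by
      intro I B hI hImax hB
      have hne : ¬ B ⊆ I := by
        intro hBI
        have : B = I := le_antisymm hBI (hB.2 hI hBI)
        exact hImax (this ▸ hB)
      obtain ⟨x, hxB, hxI⟩ := Set.not_subset.1 hne
      obtain ⟨J, hJ, hIJ, hJI⟩ : ∃ J, UInd 𝓑 J ∧ I ⊆ J ∧ ¬ J ⊆ I := by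
        by_contra hcon
        push Not at hcon
        exact hImax ⟨hI, fun J hJ hIJ => hcon J hJ hIJ⟩
      obtain ⟨y, hyJ, hyI⟩ := Set.not_subset.1 hJI
      exact ⟨x, ⟨hxB, hxI⟩, hJ.insert hIJ hyJ hyI hxI⟩
    indep_maximal := fun X _ I hI hIX => h.maximal_in hI hIX
    subset_ground := fun _ _ => Set.subset_univ _ }

theorem UM_E (h : UFam 𝓑) : (UM h).E = Set.univ := rfl

theorem UM_indep (h : UFam 𝓑) {I : Set F} : (UM h).Indep I ↔ UInd 𝓑 I := Iff.rfl

/-- If `I` is independent and not a base then adding any element keeps independence. -/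
theorem UM_insert (h : UFam 𝓑) {I : Set F} (hI : (UM h).Indep I) (hnb : ¬ (UM h).IsBase I) {x : F}
    (hx : x ∉ I) : (UM h).Indep (insert x I) := by
  obtain ⟨B, hB, hIB⟩ := hI.exists_isBase_superset
  have hne : ¬ B ⊆ I := fun hBI => hnb ((le_antisymm hIB hBI) ▸ hB)
  obtain ⟨y, hyB, hyI⟩ := Set.not_subset.1 hne
  exact UInd.insert hB.indep hIB hyB hyI hx

/-- Every base is almost equal to a prototype. -/
theorem UM_base (h : UFam 𝓑) {I : Set F} (hI : (UM h).IsBase I) :
    ∃ B ∈ 𝓑, AS I B ∧ AS B I := by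
  obtain ⟨B, hB, hf, hle⟩ := (UM_indep h).1 hI.indep
  refine ⟨B, hB, hf, ?_⟩
  by_contra hcon
  have hinf : (B \ I).Infinite := hcon
  obtain ⟨x, hx⟩ := hinf.nonempty
  have hind : (UM h).Indep (insert x I) := by
    refine ⟨B, hB, ?_, ?_⟩
    · refine (hf.insert x).subset ?_
      rintro z ⟨rfl | hz, hzB⟩
      · exact Or.inl rfl
      · exact Or.inr ⟨hz, hzB⟩
    · have : (B \ insert x I).Infinite := by
        intro hfin
        apply hinf
        refine (hfin.insert x).subset ?_
        intro z hz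
        by_cases hzx : z = x
        · exact Or.inl hzx
        · refine Or.inr ⟨hz.1, ?_⟩
          rintro (h | h)
          · exact hzx h
          · exact hz.2 h
      rw [this.encard_eq]
      exact le_top
  have := hI.eq_of_subset_indep hind (Set.subset_insert x I)
  exact hx.2 (this ▸ Set.mem_insert x I)

/-- Uniformity: every set is independent or spanning. -/
theorem UM_uniform (h : UFam 𝓑) (X : Set F) : (UM h).Indep X ∨ (UM h).Spanning X := by
  by_cases hX : (UM h).Indep X
  · exact Or.inl hX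
  right
  obtain ⟨J, hJ⟩ := (UM h).exists_isBasis X (Set.subset_univ X)
  have hJX : ∃ x ∈ X, x ∉ J := by
    by_contra hcon
    push Not at hcon
    have : X = J := le_antisymm hcon hJ.subset
    exact hX (this ▸ hJ.indep)
  obtain ⟨x, hxX, hxJ⟩ := hJX
  have hbase : (UM h).IsBase J := by
    by_contra hnb
    exact hxJ (hJ.mem_of_insert_indep hxX (UM_insert h hJ.indep hnb hxJ))
  exact hbase.spanning.superset hJ.subset (Set.subset_univ X)

end Vale.Agent.P068
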