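import Vale.Agent.P068.Ext
import Vale.Agent.P068.Unif

/-!
The pair of matroids and the failure of intersection and of packing/covering.
-/

namespace Vale.Agent.P068

open Set
open scoped Matroid

/-- The pair `(M, N)` satisfies intersection: some common independent set `J` has a partition
`J = J₁ ∪ J₂` such that the `M`-closure of `J₁` and the `N`-closure of `J₂` cover the ground set. -/
def SatisfiesIntersection {α : Type*} (M N : Matroid α) : Prop :=
  ∃ J J₁ J₂ : Set α, M.Indep J ∧ N.Indep J ∧ J₁ ∪ J₂ = J ∧ Disjoint J₁ J₂ ∧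
    M.closure J₁ ∪ N.closure J₂ = M.E

/-- The family `(M i : i ∈ Θ)` of matroids on `E` has a packing/covering partition: `E = P ∪ C` with
`P`, `C` disjoint, pairwise disjoint sets `S i ⊆ P` spanning the restrictions `M i ↾ P`, and sets
`I i ⊆ C`, independent in the contractions `((M i)✶ ↾ C)✶` onto `C`, with union `C`. -/
def HasPackingCovering {α Θ : Type*} (E : Set α) (M : Θ → Matroid α) : Prop :=
  ∃ P C : Set α, P ∪ C = E ∧ Disjoint P C ∧
    (∃ S : Θ → Set α, (∀ i, S i ⊆ P) ∧ (∀ i j, i ≠ j → Disjoint (S i) (S j)) ∧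
      ∀ i, ((M i) ↾ P).closure (S i) = P) ∧
    ∃ I : Θ → Set α, (∀ i, I i ⊆ C) ∧ (∀ i, ((M i)✶ ↾ C)✶.Indep (I i)) ∧ ⋃ i, I i = C

/-- A packing/covering partition for `(M, N✶)` gives intersection for `(M, N)`
(Bowler and Carmesin). -/
theorem inter_of_pc {α : Type*} {M N : Matroid α} (hM : M.E = univ) (hN : N.E = univ)
    (h : HasPackingCovering univ (fun b : Bool => if b then M else N✶)) :
    SatisfiesIntersection M N := by
  obtain ⟨P, C, hPC, hdis, ⟨S, hSP, hSd, hS⟩, I, hIC, hI, hIU⟩ := h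
  have hS1 := hS true
  have hS2 := hS false
  have hI1 := hI true
  have hI2 := hI false
  simp only [if_true, Bool.false_eq_true, if_false] at hS1 hS2 hI1 hI2
  have hCc : C = univ \ P := by
    rw [← hPC, union_sdiff_left]
    exact hdis.sdiff_eq_right.symm
  have hPc : P = univ \ C := by
    rw [← hPC, union_sdiff_right]
    exact hdis.sdiff_eq_left.symm
  -- contractions
  have hMC : (M✶ ↾ C)✶ = M ／ P := by
    rw [← Matroid.dual_delete_dual, Matroid.delete_eq_restrict, Matroid.dual_ground, hM, ← hCc]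
  have hNP : (N✶ ↾ P)✶ = N ／ C := by
    rw [← Matroid.dual_delete_dual, Matroid.delete_eq_restrict, Matroid.dual_ground, hN, ← hPc]
  -- the part in P
  obtain ⟨J₁, hJ₁⟩ := M.exists_isBasis (S true) (by rw [hM]; exact subset_univ _)
  have hPcl : P ⊆ M.closure J₁ := by
    rw [hJ₁.closure_eq_closure]
    rw [Matroid.restrict_closure_eq _ (hSP true) (by rw [hM]; exact subset_univ _)] at hS1
    exact inter_eq_right.1 hS1
  have hJ₁P : J₁ ⊆ P := hJ₁.subset.trans (hSP true)
  have hJ₁bas : M.IsBasis J₁ P := hJ₁.indep.isBasis_of_subset_of_subset_closure hJ₁P hPcl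
  have hJ₁N : (N ／ C).Indep J₁ := by
    rw [← hNP]
    have h1 : (N✶ ↾ P).Spanning (S false) := by
      rw [Matroid.spanning_iff, hS2]
      exact ⟨rfl, hSP false⟩
    have h2 := h1.compl_coindep
    rw [Matroid.restrict_ground_eq, Matroid.coindep_def] at h2
    refine h2.subset ?_
    intro x hx
    refine ⟨hJ₁P hx, fun hx2 => ?_⟩
    exact (Set.disjoint_left.1 (hSd true false (by simp))) (hJ₁.subset hx) hx2
  -- the part in C
  rw [Matroid.dual_dual] at hI2
  have hspan : (N ↾ C).Spanning (C \ I false) := by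
    have h2 : (N ↾ C).Coindep (I false) := hI2
    have h3 := h2.compl_spanning
    rwa [Matroid.restrict_ground_eq] at h3
  have hsub : C \ I false ⊆ I true := by
    intro x hx
    have : x ∈ ⋃ i, I i := by rw [hIU]; exact hx.1
    obtain ⟨i, hi⟩ := mem_iUnion.1 this
    cases i with
    | false => exact (hx.2 hi).elim
    | true => exact hi
  obtain ⟨J₂, hJ₂⟩ := N.exists_isBasis (C \ I false) (by rw [hN]; exact subset_univ _)
  have hJ₂C : J₂ ⊆ C := hJ₂.subset.trans sdiff_subset
  have hCcl : C ⊆ N.closure J₂ := by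
    rw [hJ₂.closure_eq_closure]
    rw [Matroid.restrict_spanning_iff sdiff_subset (by rw [hN]; exact subset_univ _)] at hspan
    exact hspan
  have hJ₂bas : N.IsBasis J₂ C := hJ₂.indep.isBasis_of_subset_of_subset_closure hJ₂C hCcl
  have hJ₂M : (M ／ P).Indep J₂ := by
    rw [← hMC]
    exact hI1.subset (hJ₂.subset.trans hsub)
  refine ⟨J₁ ∪ J₂, J₁, J₂, ?_, ?_, rfl, hdis.mono hJ₁P hJ₂C, ?_⟩
  · rw [union_comm]
    exact (hJ₁bas.contract_indep_iff.1 hJ₂M).1
  · exact (hJ₂bas.contract_indep_iff.1 hJ₁N).1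
  · rw [hM]
    apply eq_univ_of_forall
    intro x
    have : x ∈ P ∪ C := by rw [hPC]; trivial
    rcases this with hx | hx
    · exact Or.inl (hPcl hx)
    · exact Or.inr (hCcl hx)

/-- The pair (bundle and index) to which an element belongs. -/
def pr : V × F → Option V × ℕ
  | (v, (true, k)) => (some v, k)
  | ((_, 0), (false, k)) => (none, k)
  | ((j, n + 1), (false, k)) => (some (j, n), k)

theorem pr_out (v : V) (k : ℕ) : pr (v, (true, k)) = (some v, k) := by
  rfl

theorem pr_in (v : V) (k : ℕ) : pr (sc v, (false, k)) = (some v, k) := by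
  rfl

theorem pr_cen (j : Bool) (k : ℕ) : pr ((j, 0), (false, k)) = (none, k) := by
  rfl

theorem pr_some {e : V × F} {v : V} {k : ℕ} (h : pr e = (some v, k)) :
    e = (v, (true, k)) ∨ e = (sc v, (false, k)) := by
  rcases e with ⟨⟨j, _ | n⟩, ⟨_ | _, m⟩⟩
  · simp [pr] at h
  · left
    simp only [pr, Prod.mk.injEq, Option.some.injEq] at h
    rw [← h.1, h.2]
  · right
    simp only [pr, Prod.mk.injEq, Option.some.injEq] at h
    rw [← h.1, h.2]
    rfl
  · left
    simp only [pr, Prod.mk.injEq, Option.some.injEq] at h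
    rw [← h.1, h.2]

theorem pr_none {e : V × F} {k : ℕ} (h : pr e = (none, k)) :
    e = ((false, 0), (false, k)) ∨ e = ((true, 0), (false, k)) := by
  rcases e with ⟨⟨_ | _, _ | n⟩, ⟨_ | _, m⟩⟩ <;> simp_all [pr]

/-- The partition matroid with the fibres of `pr` as parts, each part of rank one. -/
def NM : Matroid (V × F) := (Matroid.freeOn univ).comap pr

theorem NM_E : NM.E = univ := by
  simp [NM]

theorem NM_indep {I : Set (V × F)} : NM.Indep I ↔ InjOn pr I := by
  simp [NM]

theorem fib_some (v : V) (k : ℕ) :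
    pr ⁻¹' {(some v, k)} = {(v, (true, k)), (sc v, (false, k))} := by
  ext e
  constructor
  · intro h
    exact pr_some h
  · rintro (rfl | rfl)
    · exact pr_out v k
    · exact pr_in v k

theorem fib_none (k : ℕ) :
    pr ⁻¹' {(none, k)} = {((false, 0), (false, k)), ((true, 0), (false, k))} := by
  ext e
  constructor
  · intro h
    exact pr_none h
  · rintro (rfl | rfl)
    · exact pr_cen _ k
    · exact pr_cen _ k

theorem fib_card (p : Option V × ℕ) : (pr ⁻¹' {p}).encard = 2 := by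
  rcases p with ⟨_ | v, k⟩
  · rw [fib_none, encard_pair]
    simp
  · rw [fib_some, encard_pair]
    simp

section

variable {T : Type} (f : T → Dec)

/-- The prototype bases at the vertex `v`. -/
def fam (v : V) : Set (Set F) := {B | ∃ τ, (f τ).v = v ∧ B = (f τ).B}

variable {f}

theorem fam_ufam (hf : ∀ i j, Cmp (f i) (f j))
    (ht : ∀ v I Y, I ⊆ Y → ∃ τ, (f τ).v = v ∧
      (AS (f τ).B I ∨ AS Y (f τ).B ∨ (AS I (f τ).B ∧ AS (f τ).B Y))) (v : V) :
    UFam (fam f v) := by
  constructor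
  · rintro _ ⟨a, ha, rfl⟩ _ ⟨b, hb, rfl⟩ hab
    by_contra hcon
    exact (hf a b).anti (ha.trans hb.symm) (fun h => hcon (by rw [h])) hab
  · intro I Y hIY
    obtain ⟨τ, h1, h2⟩ := ht v I Y hIY
    exact ⟨_, ⟨τ, h1, rfl⟩, h2⟩

theorem main_false (hf : ∀ i j, Cmp (f i) (f j)) (hU : ∀ v, UFam (fam f v))
    (h : SatisfiesIntersection (Matroid.sum' (fun v => UM (hU v))) NM) : False := by
  obtain ⟨J, J₁, J₂, hMJ, hNJ, rfl, hdis, hcl⟩ := h
  rw [NM_indep] at hNJ
  have hE : (Matroid.sum' (fun v => UM (hU v))).E = univ := by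
    ext ⟨v, x⟩
    simp [UM_E]
  have hMJ₁ : (Matroid.sum' (fun v => UM (hU v))).Indep J₁ := hMJ.subset subset_union_left
  have hMJ₂ : (Matroid.sum' (fun v => UM (hU v))).Indep J₂ := hMJ.subset subset_union_right
  have hA : ∀ v, (UM (hU v)).Indep (Prod.mk v ⁻¹' J₁) := Matroid.sum'_indep_iff.1 hMJ₁
  -- closure in M
  have fact1 : ∀ v x, ¬ (UM (hU v)).IsBase (Prod.mk v ⁻¹' J₁) → (v, x) ∉ J₁ →
      (v, x) ∉ (Matroid.sum' (fun v => UM (hU v))).closure J₁ := by
    intro v x hv hx
    rw [hMJ₁.notMem_closure_iff_of_notMem hx (by rw [hE]; trivial), Matroid.sum'_indep_iff]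
    intro w
    by_cases hwv : w = v
    · subst hwv
      have : Prod.mk w ⁻¹' (insert (w, x) J₁) = insert x (Prod.mk w ⁻¹' J₁) := by
        ext y
        simp
      rw [this]
      exact UM_insert (hU w) (hA w) hv hx
    · have : Prod.mk w ⁻¹' (insert (v, x) J₁) = Prod.mk w ⁻¹' J₁ := by
        ext y
        simp only [mem_preimage, mem_insert_iff, Prod.mk.injEq]
        constructor
        · rintro (⟨h, -⟩ | h)
          · exact (hwv h).elim
          · exact h
        · exact Or.inr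
      rw [this]
      exact hA w
  -- closure in N
  have fact2 : ∀ e, e ∈ NM.closure J₂ → ∃ e' ∈ J₂, pr e' = pr e := by
    intro e he
    have hN2 : NM.Indep J₂ := NM_indep.2 (hNJ.mono subset_union_right)
    rcases hN2.mem_closure_iff.1 he with h | h
    · by_contra hcon
      push Not at hcon
      apply h.not_indep
      rw [NM_indep]
      intro a ha b hb hab
      rcases ha with rfl | ha
      · rcases hb with rfl | hb
        · rfl
        · exact (hcon b hb hab.symm).elim
      · rcases hb with rfl | hb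
        · exact (hcon a ha hab).elim
        · exact hNJ (Or.inr ha) (Or.inr hb) hab
    · exact ⟨e, h, rfl⟩
  have fact3 : ∀ e ∈ J₁, ∀ e' ∈ J₂, pr e' ≠ pr e := by
    intro e he e' he' hee
    have := hNJ (Or.inr he') (Or.inl he) hee
    exact Set.disjoint_left.1 hdis he (this ▸ he')
  have hcov : ∀ v x, ¬ (UM (hU v)).IsBase (Prod.mk v ⁻¹' J₁) → (v, x) ∈ J₁ ∨
      ∃ e' ∈ J₂, pr e' = pr (v, x) := by
    intro v x hv
    by_cases hx : (v, x) ∈ J₁
    · exact Or.inl hx
    · right
      have h1 : (v, x) ∈ (Matroid.sum' (fun v => UM (hU v))).closure J₁ ∪ NM.closure J₂ := by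
        rw [hcl, hE]; trivial
      rcases h1 with h1 | h1
      · exact (fact1 v x hv hx h1).elim
      · exact fact2 _ h1
  -- a base at `v` forces a base at the other end of each of its pairs
  have hpart : ∀ v x w y, (v, x) ∈ J₁ → (v, x) ≠ (w, y) → pr (w, y) = pr (v, x) →
      (UM (hU w)).IsBase (Prod.mk w ⁻¹' J₁) ∧ (w, y) ∉ J₁ := by
    intro v x w y hx hne hpr
    have hn : (w, y) ∉ J₁ := fun hy => hne (hNJ (Or.inl hx) (Or.inl hy) hpr.symm)
    refine ⟨?_, hn⟩
    by_contra hw
    rcases hcov w y hw with h1 | ⟨e', he', h1⟩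
    · exact hn h1
    · exact fact3 _ hx e' he' (h1.trans hpr)
  have hproto : ∀ v (D : Set F), (UM (hU v)).IsBase D → ∃ τ, (f τ).v = v ∧ AS D (f τ).B ∧
      AS (f τ).B D := by
    intro v D hD
    obtain ⟨B, ⟨τ, h1, rfl⟩, h2, h3⟩ := UM_base (hU v) hD
    exact ⟨τ, h1, h2, h3⟩
  -- infinitely many elements in parts
  have hinf : ∀ τ (D : Set F), AS (f τ).B D →
      ((f τ).t = true → ∃ k, (false, k) ∈ D) ∧ ((f τ).t = false → ∃ k, (true, k) ∈ D) := by
    intro τ D hD
    constructor
    · intro ht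
      by_contra hcon
      push Not at hcon
      refine (hf τ τ).big (f τ).v _ (Or.inl ⟨rfl, ht, rfl⟩) ?_
      refine (hD.part (s := false)).mono_right ?_
      intro k hk
      exact hcon k hk
    · intro ht
      by_contra hcon
      push Not at hcon
      refine (hf τ τ).small (sc (f τ).v) _ (Or.inr (Or.inl ⟨rfl, ht, rfl⟩)) ?_
      rw [AS.compl_right]
      refine (hD.part (s := true)).mono_right ?_
      intro k hk
      exact (hcon k hk).elim
  -- no outward base
  have noU : ∀ (r : Ordinal.{0}) (τ : T), (f τ).r = r → (f τ).t = false →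
      (UM (hU (f τ).v)).IsBase (Prod.mk (f τ).v ⁻¹' J₁) →
      AS (Prod.mk (f τ).v ⁻¹' J₁) (f τ).B → AS (f τ).B (Prod.mk (f τ).v ⁻¹' J₁) → False := by
    intro r
    induction r using WellFoundedLT.induction with
    | _ r ih =>
      intro τ hr ht hb h1 h2
      obtain ⟨k, hk⟩ := (hinf τ _ h2).2 ht
      have hw := (hpart (f τ).v (true, k) (sc (f τ).v) (false, k) hk (by simp)
        (by rw [pr_in, pr_out])).1
      obtain ⟨σ, hσ, hσ1, hσ2⟩ := hproto _ _ hw
      have hincl : part false (Prod.mk (sc (f τ).v) ⁻¹' J₁) ⊆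
          (part true (Prod.mk (f τ).v ⁻¹' J₁))ᶜ := by
        intro m hm hm2
        exact (hpart (f τ).v (true, m) (sc (f τ).v) (false, m) hm2 (by simp)
          (by rw [pr_in, pr_out])).2 hm
      have hAS : AS (part false (f σ).B) (part true (f τ).B)ᶜ :=
        (hσ2.part.mono_right hincl).trans (AS.compl h2.part)
      rcases hts : (f σ).t with _ | _
      · have hlt := (hf τ σ).rkU hσ ht hts hAS
        refine ih (f σ).r (by rw [← hr]; exact hlt) σ rfl hts ?_ ?_ ?_
        · rw [hσ]; exact hw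
        · rw [hσ]; exact hσ1
        · rw [hσ]; exact hσ2
      · exact (hf σ τ).sep (sc (f τ).v) _ _ (Or.inl ⟨hσ, hts, rfl⟩)
          (Or.inr (Or.inl ⟨rfl, ht, rfl⟩)) hAS
  have noU' : ∀ v, (UM (hU v)).IsBase (Prod.mk v ⁻¹' J₁) → ∃ τ, (f τ).v = v ∧ (f τ).t = true ∧
      AS (Prod.mk v ⁻¹' J₁) (f τ).B ∧ AS (f τ).B (Prod.mk v ⁻¹' J₁) := by
    intro v hv
    obtain ⟨τ, h1, h2, h3⟩ := hproto _ _ hv
    subst h1
    rcases ht : (f τ).t with _ | _
    · exact (noU _ τ rfl ht hv h2 h3).elim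
    · exact ⟨τ, rfl, ht, h2, h3⟩
  -- no base at all
  have noK0 : ∀ j : Bool, ¬ (UM (hU (j, 0))).IsBase (Prod.mk (j, 0) ⁻¹' J₁) := by
    intro j hj
    obtain ⟨τ, h1, h2, h3, h4⟩ := noU' _ hj
    obtain ⟨k, hk⟩ := (hinf τ _ h4).1 h2
    have hne : ∀ m : ℕ, (((j, 0), (false, m)) : V × F) ≠ ((!j, 0), (false, m)) := by
      intro m h
      have := congrArg (fun e : V × F => e.1.1) h
      simp at this
    have hw := (hpart (j, 0) (false, k) (!j, 0) (false, k) hk (hne k)
      (by rw [pr_cen, pr_cen])).1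
    obtain ⟨σ, hs1, hs2, hs3, hs4⟩ := noU' _ hw
    have hincl : part false (Prod.mk (!j, 0) ⁻¹' J₁) ⊆ (part false (Prod.mk (j, 0) ⁻¹' J₁))ᶜ := by
      intro m hm hm2
      exact (hpart (j, 0) (false, m) (!j, 0) (false, m) hm2 (hne m)
        (by rw [pr_cen, pr_cen])).2 hm
    have hAS : AS (part false (f σ).B) (part false (f τ).B)ᶜ :=
      (hs4.part.mono_right hincl).trans (AS.compl h4.part)
    exact (hf σ τ).sep (!j, 0) _ _ (Or.inl ⟨hs1, hs2, rfl⟩)
      (Or.inr (Or.inr ⟨rfl, by rw [h1]; simp [opp], by simpa using h2, rfl⟩)) hAS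
  have noK : ∀ (n : ℕ) (j : Bool), ¬ (UM (hU (j, n))).IsBase (Prod.mk (j, n) ⁻¹' J₁) := by
    intro n
    induction n with
    | zero => exact noK0
    | succ n ih =>
      intro j hj
      obtain ⟨τ, h1, h2, h3, h4⟩ := noU' _ hj
      obtain ⟨k, hk⟩ := (hinf τ _ h4).1 h2
      exact ih j (hpart (j, n + 1) (false, k) (j, n) (true, k) hk (by simp) rfl).1
  -- every pair meets J₂
  have hall : ∀ e e' : V × F, e ≠ e' → pr e = pr e' → e ∈ J₂ ∨ e' ∈ J₂ ∨
      ∃ e'' ∈ J₂, pr e'' = pr e := by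
    intro e e' hne hpr
    rcases hcov e.1 e.2 (noK e.1.2 e.1.1) with h1 | h1
    · rcases hcov e'.1 e'.2 (noK e'.1.2 e'.1.1) with h2 | ⟨e'', h3, h4⟩
      · exact (hne (hNJ (Or.inl h1) (Or.inl h2) hpr)).elim
      · exact Or.inr (Or.inr ⟨e'', h3, h4.trans hpr.symm⟩)
    · exact Or.inr (Or.inr h1)
  have hsome : ∀ v k, (v, (true, k)) ∈ J₂ ∨ (sc v, (false, k)) ∈ J₂ := by
    intro v k
    rcases hall (v, (true, k)) (sc v, (false, k)) (by simp) (by rw [pr_in, pr_out]) with
      h | h | ⟨e, h1, h2⟩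
    · exact Or.inl h
    · exact Or.inr h
    · rw [pr_out] at h2
      rcases pr_some h2 with rfl | rfl
      · exact Or.inl h1
      · exact Or.inr h1
  have hnone : ∀ k, ((false, 0), (false, k)) ∈ J₂ ∨ ((true, 0), (false, k)) ∈ J₂ := by
    intro k
    rcases hall ((false, 0), (false, k)) ((true, 0), (false, k)) (by simp)
      (by rw [pr_cen, pr_cen]) with h | h | ⟨e, h1, h2⟩
    · exact Or.inl h
    · exact Or.inr h
    · rw [pr_cen] at h2
      rcases pr_none h2 with rfl | rfl
      · exact Or.inl h1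
      · exact Or.inr h1
  -- extend J₂ to a base at each vertex
  have hD : ∀ v, ∃ τ, (f τ).v = v ∧ AS (Prod.mk v ⁻¹' J₂) (f τ).B := by
    intro v
    obtain ⟨D, hD, hsub⟩ := (Matroid.sum'_indep_iff.1 hMJ₂ v).exists_isBase_superset
    obtain ⟨τ, h1, h2, h3⟩ := hproto _ _ hD
    exact ⟨τ, h1, h2.mono_left hsub⟩
  choose δ hδ1 hδ2 using hD
  have hstep : ∀ v, AS (part true (f (δ v)).B)ᶜ (part false (f (δ (sc v))).B) := by
    intro v
    refine (AS.compl (hδ2 v).part).trans (AS.mono_left ?_ (hδ2 (sc v)).part)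
    intro k hk
    rcases hsome v k with h | h
    · exact (hk h).elim
    · exact h
  have noO : ∀ (r : Ordinal.{0}) (v : V), (f (δ v)).r = r → (f (δ v)).t = true → False := by
    intro r
    induction r using WellFoundedLT.induction with
    | _ r ih =>
      intro v hr ht
      rcases hts : (f (δ (sc v))).t with _ | _
      · exact (hf (δ v) (δ (sc v))).sep (sc v) _ _
          (Or.inr (Or.inl ⟨by rw [hδ1], ht, rfl⟩)) (Or.inl ⟨hδ1 _, hts, rfl⟩) (hstep v)
      · have hlt := (hf (δ v) (δ (sc v))).rkO (by rw [hδ1, hδ1]) ht hts (hstep v)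
        exact ih _ (by rw [← hr]; exact hlt) (sc v) rfl hts
  have hft : ∀ v, (f (δ v)).t = false := by
    intro v
    rcases ht : (f (δ v)).t with _ | _
    · rfl
    · exact (noO _ v rfl ht).elim
  have hcen : AS (part false (f (δ (false, 0))).B)ᶜ (part false (f (δ (true, 0))).B) := by
    refine (AS.compl (hδ2 (false, 0)).part).trans (AS.mono_left ?_ (hδ2 (true, 0)).part)
    intro k hk
    rcases hnone k with h | h
    · exact (hk h).elim
    · exact h
  exact (hf (δ (false, 0)) (δ (true, 0))).sep (true, 0) _ _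
    (Or.inr (Or.inr ⟨rfl, by rw [hδ1]; rfl, by simpa using hft (false, 0), rfl⟩))
    (Or.inl ⟨hδ1 _, hft _, rfl⟩) hcen

end

end Vale.Agent.P068
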